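import Vale.Agent.P076.R2.H831V.Spec2

/-!
# P076 : anisotropic Sobolev spaces, the conclusion for the data (row Z2)
-/

open MeasureTheory Complex FourierTransform Filter Topology Set
open scoped ENNReal NNReal

namespace Vale.Agent.P076.R2.H808

open Vale.Agent.P076 Vale.Agent.P076.H791 Vale.Agent.P076.R2 Vale.Agent.P076.R2.H45
open Vale.Agent.P076.R2.H831 Vale.Agent.P076.R2.H831V

variable {n : ℕ}

/-- the anisotropic weight -/
noncomputable def aw (e : Fin n → ℝ) (ε : ℝ) (ξ : Fin n → ℝ) : ℝ :=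
  |∑ i, ξ i * e i| ^ (1 / 2 + ε) + nrm (ξ - (∑ i, ξ i * e i) • e) ^ (1 + ε)

lemma measurable_aw (e : Fin n → ℝ) (ε : ℝ) : Measurable (aw e ε) := by
  unfold aw nrm
  simp only [Pi.sub_apply, Pi.smul_apply, smul_eq_mul]
  fun_prop

lemma aw_nonneg (e : Fin n → ℝ) (ε : ℝ) (ξ : Fin n → ℝ) : 0 ≤ aw e ε ξ := by
  unfold aw
  have h1 : 0 ≤ nrm (ξ - (∑ i, ξ i * e i) • e) := Real.sqrt_nonneg _
  exact add_nonneg (Real.rpow_nonneg (abs_nonneg _) _) (Real.rpow_nonneg h1 _)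

/-- Row Z2. -/
theorem stAniF (_hn : 1 ≤ n) (h : StAni n) : StAniF n := by
  intro e ε he hε f g hfg hg
  have hw : Measurable fun ξ : Fin n → ℝ => ENNReal.ofReal (1 + aw e ε ξ) :=
    (measurable_const.add (measurable_aw e ε)).ennreal_ofReal
  have h0 : (fun ξ : Fin n → ℝ => ENNReal.ofReal (1 + aw e ε ξ)) = fun ξ : Fin n → ℝ =>
      ENNReal.ofReal (1 + |∑ i, ξ i * e i| ^ (1 / 2 + ε) +
        nrm (ξ - (∑ i, ξ i * e i) • e) ^ (1 + ε)) := by
    funext ξ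
    rw [aw, add_assoc]
  have hMP := h e ε he hε
  rw [← h0] at hMP
  refine strong_of_MP _ hw (fun ξ => ?_) hMP hfg ?_
  · have := aw_nonneg e ε ξ
    exact ENNReal.one_le_ofReal.2 (by linarith)
  · have h1 : ∀ ξ : Fin n → ℝ, ENNReal.ofReal (1 + aw e ε ξ) * ‖g ξ‖ₑ ^ 2 =
        ‖g ξ‖ₑ ^ 2 + ENNReal.ofReal (aw e ε ξ) * ‖g ξ‖ₑ ^ 2 := by
      intro ξ
      rw [ENNReal.ofReal_add zero_le_one (aw_nonneg e ε ξ), ENNReal.ofReal_one, add_mul, one_mul]
    simp_rw [h1]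
    have hgm : AEMeasurable (fun ξ => ‖g ξ‖ₑ ^ 2) volume := hfg.2.1.1.enorm.pow_const 2
    rw [lintegral_add_left' hgm, ENNReal.add_lt_top]
    constructor
    · have h2 := hfg.2.1.eLpNorm_lt_top
      rw [eLpNorm_lt_top_iff_lintegral_rpow_enorm_lt_top two_ne_zero ENNReal.ofNat_ne_top] at h2
      refine lt_of_le_of_lt (le_of_eq (lintegral_congr fun ξ => ?_)) h2
      rw [ENNReal.toReal_ofNat, ENNReal.rpow_ofNat]
    · have h3 := hg.2
      unfold HasFiniteIntegral at h3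
      refine lt_of_le_of_lt (le_of_eq (lintegral_congr fun ξ => ?_)) h3
      show _ = ‖aw e ε ξ * ‖g ξ‖ ^ 2‖ₑ
      rw [enorm_mul, Real.enorm_of_nonneg (aw_nonneg e ε ξ), enorm_pow, enorm_norm]

end Vale.Agent.P076.R2.H808
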